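import Mathlib

/-!
# P131: hyperinvariant subspaces for normal operators and for operators with eigenvalues

Let `H` be a complex Hilbert space (of any dimension) and `T` a bounded operator on `H` that is not
a scalar multiple of the identity.  If `T` is normal, or `T` has an eigenvalue, or the adjoint of
`T` has an eigenvalue, then `T` has a nontrivial closed hyperinvariant subspace: a closed subspace
`M`, different from `0` and from `H`, which is mapped into itself by every bounded operator that
commutes with `T`.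

* Normal case: the spectrum of a non-scalar normal operator has two distinct points `a`, `b`.
  Take continuous functions `f`, `g` on `ℂ` with `f a ≠ 0`, `g b ≠ 0` and `f * g = 0`.  By the
  continuous functional calculus `f(T) g(T) = 0`, `f(T) ≠ 0`, `g(T) ≠ 0`, so `M = ker f(T)` is
  nontrivial; by Fuglede's theorem every `S` commuting with `T` commutes with the adjoint of `T`,
  hence with `f(T)`, hence maps `M` into itself.
* Eigenvalue case: `M = ker (T - c)`.
* Adjoint eigenvalue case: `M` is the orthogonal complement of `ker (T* - c)`.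
-/

namespace Vale.Agent.Results.P131.A_NormalOperators

open scoped InnerProductSpace

variable {H : Type*} [NormedAddCommGroup H] [InnerProductSpace ℂ H] [CompleteSpace H]

/-- The normal case. -/
theorem normal_case (T : H →L[ℂ] H) (hn : IsStarNormal T)
    (hscalar : ∀ c : ℂ, T ≠ c • (1 : H →L[ℂ] H)) :
    ∃ M : Submodule ℂ H, IsClosed (M : Set H) ∧ M ≠ ⊥ ∧ M ≠ ⊤ ∧
      ∀ S : H →L[ℂ] H, S * T = T * S → ∀ x ∈ M, S x ∈ M := by
  have h2 : ∃ a ∈ spectrum ℂ T, ∃ b ∈ spectrum ℂ T, a ≠ b := by
    by_contra hcon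
    have hcon' : ∀ z ∈ spectrum ℂ T, ∀ w ∈ spectrum ℂ T, z = w := by
      intro z hz w hw
      by_contra hzw
      exact hcon ⟨z, hz, w, hw, hzw⟩
    obtain ⟨c, hc⟩ : ∃ c : ℂ, ∀ z ∈ spectrum ℂ T, z = c := by
      by_cases hne : (spectrum ℂ T).Nonempty
      · obtain ⟨c, hc⟩ := hne
        exact ⟨c, fun z hz => hcon' z hz c hc⟩
      · exact ⟨0, fun z hz => absurd ⟨z, hz⟩ hne⟩
    have h1 : cfc (id : ℂ → ℂ) T = cfc (fun _ : ℂ => c) T :=
      cfc_congr (fun z hz => hc z hz)
    rw [cfc_id ℂ T, cfc_const c T] at h1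
    exact hscalar c (by rw [h1, Algebra.algebraMap_eq_smul_one])
  obtain ⟨a, ha, b, hb, hab⟩ := h2
  have hdpos : 0 < dist a b := dist_pos.mpr hab
  set r : ℝ := dist a b / 2 with hr
  have hrpos : 0 < r := by positivity
  set f : ℂ → ℂ := fun z => ((max 0 (r - dist z a) : ℝ) : ℂ) with hfdef
  set g : ℂ → ℂ := fun z => ((max 0 (r - dist z b) : ℝ) : ℂ) with hgdef
  have hf : Continuous f := by
    rw [hfdef]; fun_prop
  have hg : Continuous g := by
    rw [hgdef]; fun_prop
  have hfg : ∀ z, f z * g z = 0 := by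
    intro z
    by_cases h1 : r - dist z a ≤ 0
    · simp [hfdef, max_eq_left h1]
    · have h3 : r - dist z b ≤ 0 := by
        have h1' : 0 < r - dist z a := not_le.mp h1
        have := dist_triangle_left a b z
        linarith
      simp [hgdef, max_eq_left h3]
  have hfa : f a ≠ 0 := by
    simp only [hfdef, dist_self, sub_zero]
    rw [max_eq_right hrpos.le]
    exact_mod_cast hrpos.ne'
  have hgb : g b ≠ 0 := by
    simp only [hgdef, dist_self, sub_zero]
    rw [max_eq_right hrpos.le]
    exact_mod_cast hrpos.ne'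
  have hAB : cfc f T * cfc g T = 0 := by
    rw [← cfc_mul f g T hf.continuousOn hg.continuousOn]
    have : (fun x => f x * g x) = (fun _ : ℂ => (0 : ℂ)) := funext hfg
    rw [this]
    exact cfc_const_zero ℂ T
  have hA : cfc f T ≠ 0 := by
    intro h0
    have h1 : cfc f T = cfc (fun _ : ℂ => (0 : ℂ)) T := by rw [h0, cfc_const_zero ℂ T]
    have h3 := eqOn_of_cfc_eq_cfc h1 hf.continuousOn continuousOn_const hn
    exact hfa (h3 ha)
  have hB : cfc g T ≠ 0 := by
    intro h0
    have h1 : cfc g T = cfc (fun _ : ℂ => (0 : ℂ)) T := by rw [h0, cfc_const_zero ℂ T]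
    have h3 := eqOn_of_cfc_eq_cfc h1 hg.continuousOn continuousOn_const hn
    exact hgb (h3 hb)
  set A : H →L[ℂ] H := cfc f T with hAdef
  set B : H →L[ℂ] H := cfc g T with hBdef
  have hABx : ∀ x : H, A (B x) = 0 := by
    intro x
    have := congrArg (fun C : H →L[ℂ] H => C x) hAB
    simpa using this
  refine ⟨LinearMap.ker (A : H →ₗ[ℂ] H), A.isClosed_ker, ?_, ?_, ?_⟩
  · -- nonzero: contains the range of `g(T)`
    intro hbot
    apply hB
    ext x
    have hx : B x ∈ LinearMap.ker (A : H →ₗ[ℂ] H) := by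
      rw [LinearMap.mem_ker]
      exact hABx x
    rw [hbot, Submodule.mem_bot] at hx
    simpa using hx
  · -- proper: `f(T) ≠ 0`
    intro htop
    apply hA
    ext x
    have hx : x ∈ LinearMap.ker (A : H →ₗ[ℂ] H) := by rw [htop]; trivial
    rw [LinearMap.mem_ker] at hx
    simpa using hx
  · intro S hS x hx
    have hc1 : Commute T S := hS.symm
    have hc2 : Commute (star T) S := hn.commute_star_left hc1
    have hc3 : Commute A S := hc1.cfc hc2 f
    rw [LinearMap.mem_ker] at hx ⊢
    have h5 : A (S x) = S (A x) := congrArg (fun C : H →L[ℂ] H => C x) hc3.eq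
    have hx' : A x = 0 := hx
    change A (S x) = 0
    rw [h5, hx', map_zero]

omit [CompleteSpace H] in
/-- The case of an eigenvalue. -/
theorem eigen_case (T : H →L[ℂ] H) (hscalar : ∀ c : ℂ, T ≠ c • (1 : H →L[ℂ] H))
    (c : ℂ) (x₀ : H) (hx₀ : x₀ ≠ 0) (hT : T x₀ = c • x₀) :
    ∃ M : Submodule ℂ H, IsClosed (M : Set H) ∧ M ≠ ⊥ ∧ M ≠ ⊤ ∧
      ∀ S : H →L[ℂ] H, S * T = T * S → ∀ x ∈ M, S x ∈ M := by
  set A : H →L[ℂ] H := T - c • (1 : H →L[ℂ] H) with hAdef
  have hAx : ∀ x : H, A x = T x - c • x := by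
    intro x
    simp [hAdef]
  refine ⟨LinearMap.ker (A : H →ₗ[ℂ] H), A.isClosed_ker, ?_, ?_, ?_⟩
  · intro hbot
    have hx : x₀ ∈ LinearMap.ker (A : H →ₗ[ℂ] H) := by
      rw [LinearMap.mem_ker]
      change A x₀ = 0
      rw [hAx, hT, sub_self]
    rw [hbot, Submodule.mem_bot] at hx
    exact hx₀ hx
  · intro htop
    apply hscalar c
    ext x
    have hx : x ∈ LinearMap.ker (A : H →ₗ[ℂ] H) := by rw [htop]; trivial
    rw [LinearMap.mem_ker] at hx
    have hx' : T x - c • x = 0 := by rw [← hAx]; exact hx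
    simpa using sub_eq_zero.mp hx'
  · intro S hS x hx
    rw [LinearMap.mem_ker] at hx ⊢
    have hx' : T x = c • x := by
      have : T x - c • x = 0 := by rw [← hAx]; exact hx
      exact sub_eq_zero.mp this
    have h1 : T (S x) = S (T x) := by
      have := congrArg (fun C : H →L[ℂ] H => C x) hS
      simpa using this.symm
    change A (S x) = 0
    rw [hAx, h1, hx', map_smul, sub_self]

/-- The case where the adjoint has an eigenvalue. -/
theorem adjoint_eigen_case (T : H →L[ℂ] H) (hscalar : ∀ c : ℂ, T ≠ c • (1 : H →L[ℂ] H))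
    (c : ℂ) (y₀ : H) (hy₀ : y₀ ≠ 0) (hT : (star T) y₀ = c • y₀) :
    ∃ M : Submodule ℂ H, IsClosed (M : Set H) ∧ M ≠ ⊥ ∧ M ≠ ⊤ ∧
      ∀ S : H →L[ℂ] H, S * T = T * S → ∀ x ∈ M, S x ∈ M := by
  set A : H →L[ℂ] H := star T - c • (1 : H →L[ℂ] H) with hAdef
  have hAx : ∀ x : H, A x = (star T) x - c • x := by
    intro x
    simp [hAdef]
  set K : Submodule ℂ H := LinearMap.ker (A : H →ₗ[ℂ] H) with hK
  have hKclosed : IsClosed (K : Set H) := A.isClosed_ker
  have hmemK : ∀ u : H, u ∈ K ↔ (star T) u = c • u := by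
    intro u
    rw [hK, LinearMap.mem_ker]
    change A u = 0 ↔ _
    rw [hAx, sub_eq_zero]
  refine ⟨Kᗮ, Submodule.isClosed_orthogonal K, ?_, ?_, ?_⟩
  · -- `Kᗮ ≠ ⊥` since `K ≠ ⊤`
    intro hbot
    have : CompleteSpace K := hKclosed.completeSpace_coe
    have hKtop : K = ⊤ := (Submodule.orthogonal_eq_bot_iff).mp hbot
    apply hscalar (starRingEnd ℂ c)
    have h1 : star T = c • (1 : H →L[ℂ] H) := by
      ext u
      have hu : u ∈ K := by rw [hKtop]; trivial
      simpa using (hmemK u).mp hu
    have h2 : star (star T) = star (c • (1 : H →L[ℂ] H)) := by rw [h1]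
    rw [star_star, star_smul, star_one] at h2
    rw [h2]
    rfl
  · -- `Kᗮ ≠ ⊤` since `K ≠ ⊥`
    intro htop
    have hKbot : K = ⊥ := (Submodule.orthogonal_eq_top_iff K).mp htop
    have hy : y₀ ∈ K := (hmemK y₀).mpr hT
    rw [hKbot, Submodule.mem_bot] at hy
    exact hy₀ hy
  · intro S hS x hx
    rw [Submodule.mem_orthogonal] at hx ⊢
    intro u hu
    have hcomm : star T * star S = star S * star T := by
      rw [← star_mul, ← star_mul, hS]
    have hSu : (star S) u ∈ K := by
      rw [hmemK]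
      have h1 : (star T) ((star S) u) = (star S) ((star T) u) :=
        congrArg (fun C : H →L[ℂ] H => C u) hcomm
      rw [h1, (hmemK u).mp hu, map_smul]
    have h3 := hx _ hSu
    rw [ContinuousLinearMap.star_eq_adjoint, ContinuousLinearMap.adjoint_inner_left] at h3
    exact h3

/-- **Hyperinvariant subspaces for normal operators and for operators with eigenvalues.**

`H` is a complex Hilbert space and `T` a bounded operator on `H` which is not a scalar multiple of
the identity.  Assume that `T` is normal (it commutes with its adjoint), or that `T` has an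
eigenvalue, or that the adjoint of `T` has an eigenvalue.  Then there is a closed subspace `M` of
`H`, different from `0` and from `H`, such that `S M ⊆ M` for every bounded operator `S` on `H`
commuting with `T`. -/
theorem result {H : Type*} [NormedAddCommGroup H] [InnerProductSpace ℂ H] [CompleteSpace H]
    (T : H →L[ℂ] H) (hscalar : ∀ c : ℂ, T ≠ c • ContinuousLinearMap.id ℂ H)
    (hclass : ContinuousLinearMap.adjoint T ∘L T = T ∘L ContinuousLinearMap.adjoint T ∨
      (∃ c : ℂ, ∃ x : H, x ≠ 0 ∧ T x = c • x) ∨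
      (∃ c : ℂ, ∃ y : H, y ≠ 0 ∧ ContinuousLinearMap.adjoint T y = c • y)) :
    ∃ M : Submodule ℂ H, IsClosed (M : Set H) ∧ M ≠ ⊥ ∧ M ≠ ⊤ ∧
      ∀ S : H →L[ℂ] H, S ∘L T = T ∘L S → ∀ x ∈ M, S x ∈ M := by
  have hscalar' : ∀ c : ℂ, T ≠ c • (1 : H →L[ℂ] H) := hscalar
  rcases hclass with hn | ⟨c, x, hx, hTx⟩ | ⟨c, y, hy, hTy⟩
  · have hn' : IsStarNormal T := by
      refine ⟨?_⟩
      rw [ContinuousLinearMap.star_eq_adjoint]
      exact hn
    exact normal_case T hn' hscalar'
  · exact eigen_case T hscalar' c x hx hTx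
  · have hTy' : (star T) y = c • y := by
      rw [ContinuousLinearMap.star_eq_adjoint]; exact hTy
    exact adjoint_eigen_case T hscalar' c y hy hTy'

end Vale.Agent.Results.P131.A_NormalOperators
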