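import Mathlib
import Vale.Agent.Results.P131.A_NormalOperators

/-!
# P131 — hyperinvariant subspaces pass along quasi-affine intertwinings (Hoover's lemma)

Let `T` act on `H` and `S` act on `K` (complex Hilbert spaces), and let `X : H → K`, `Y : K → H` be
bounded operators with `X T = S X`, `T Y = Y S`, `X` of dense range and `Y` injective (this holds in
particular when `T` and `S` are quasi-similar, or similar).  If `S` has a nontrivial closed
hyperinvariant subspace `L`, then the closed linear span `M` of the vectors `A (Y l)` with `A` in the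
commutant of `T` and `l ∈ L` is a nontrivial closed hyperinvariant subspace of `T`:
`X A Y` commutes with `S`, so `X` maps `M` into `L`.  Together with the normal case this gives a
nontrivial hyperinvariant subspace for every operator quasi-similar to a nonscalar normal operator.
-/

namespace Vale.Agent.Results.P131.B_QuasiSimilar

universe u v

/-- `T` has a nontrivial closed hyperinvariant subspace: a closed subspace `M`, different from `0`
and from the whole space, which is invariant under every bounded operator commuting with `T`. -/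
def HasHyperinvariant {H : Type u} [NormedAddCommGroup H] [InnerProductSpace ℂ H]
    (T : H →L[ℂ] H) : Prop :=
  ∃ M : Submodule ℂ H, IsClosed (M : Set H) ∧ M ≠ ⊥ ∧ M ≠ ⊤ ∧
    ∀ A : H →L[ℂ] H, A ∘L T = T ∘L A → ∀ x ∈ M, A x ∈ M

/-- `T` (on `H`) is intertwined with `S` (on `K`) by a pair of quasi-affinity-type maps: there are
bounded linear maps `X : H → K` with dense range and `Y : K → H` injective such that `X T = S X` and
`T Y = Y S`.  This holds whenever `T` and `S` are quasi-similar, in particular when they are
similar. -/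
def Intertwined {H : Type u} [NormedAddCommGroup H] [InnerProductSpace ℂ H]
    {K : Type v} [NormedAddCommGroup K] [InnerProductSpace ℂ K]
    (T : H →L[ℂ] H) (S : K →L[ℂ] K) : Prop :=
  ∃ (X : H →L[ℂ] K) (Y : K →L[ℂ] H),
    X ∘L T = S ∘L X ∧ T ∘L Y = Y ∘L S ∧ DenseRange X ∧ Function.Injective Y

theorem transfer {H : Type u} [NormedAddCommGroup H] [InnerProductSpace ℂ H]
    {K : Type v} [NormedAddCommGroup K] [InnerProductSpace ℂ K]
    (T : H →L[ℂ] H) (S : K →L[ℂ] K) (X : H →L[ℂ] K) (Y : K →L[ℂ] H)
    (hXT : X ∘L T = S ∘L X) (hTY : T ∘L Y = Y ∘L S)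
    (hX : DenseRange X) (hY : Function.Injective Y) (hS : HasHyperinvariant S) :
    HasHyperinvariant T := by
  obtain ⟨L, hLc, hLbot, hLtop, hLinv⟩ := hS
  -- the generating set
  let G : Set H := {z | ∃ A : H →L[ℂ] H, A ∘L T = T ∘L A ∧ ∃ l ∈ L, z = A (Y l)}
  let M0 : Submodule ℂ H := Submodule.span ℂ G
  -- `X` maps `M0` into `L`
  have hXG : ∀ z ∈ G, X z ∈ L := by
    rintro z ⟨A, hA, l, hl, rfl⟩
    have hcomm : (X ∘L A ∘L Y) ∘L S = S ∘L (X ∘L A ∘L Y) := by
      calc (X ∘L A ∘L Y) ∘L S = X ∘L A ∘L (Y ∘L S) := by ext v; simp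
        _ = X ∘L A ∘L (T ∘L Y) := by rw [hTY]
        _ = X ∘L (A ∘L T) ∘L Y := by ext v; simp
        _ = X ∘L (T ∘L A) ∘L Y := by rw [hA]
        _ = (X ∘L T) ∘L A ∘L Y := by ext v; simp
        _ = (S ∘L X) ∘L A ∘L Y := by rw [hXT]
        _ = S ∘L (X ∘L A ∘L Y) := by ext v; simp
    have := hLinv (X ∘L A ∘L Y) hcomm l hl
    simpa using this
  have hXM0 : ∀ z ∈ M0, X z ∈ L := by
    intro z hz
    induction hz using Submodule.span_induction with
    | mem z hz => exact hXG z hz
    | zero => simp
    | add a b _ _ ha hb => rw [map_add]; exact L.add_mem ha hb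
    | smul c a _ ha => rw [map_smul]; exact L.smul_mem c ha
  have hXM : ∀ z ∈ M0.topologicalClosure, X z ∈ L := by
    intro z hz
    have hz' : z ∈ closure (M0 : Set H) := hz
    have h1 : X z ∈ closure (L : Set K) :=
      map_mem_closure X.continuous hz' (fun w hw => hXM0 w hw)
    rwa [hLc.closure_eq] at h1
  refine ⟨M0.topologicalClosure, M0.isClosed_topologicalClosure, ?_, ?_, ?_⟩
  · -- nonzero
    obtain ⟨l, hl, hl0⟩ := (Submodule.ne_bot_iff L).mp hLbot
    have hYl : Y l ≠ 0 := by
      intro h
      apply hl0
      apply hY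
      rw [h, map_zero]
    have hmem : Y l ∈ M0.topologicalClosure := by
      apply M0.le_topologicalClosure
      apply Submodule.subset_span
      exact ⟨ContinuousLinearMap.id ℂ H, by ext v; simp, l, hl, by simp⟩
    intro hbot
    rw [hbot] at hmem
    exact hYl ((Submodule.mem_bot ℂ).mp hmem)
  · -- proper
    intro htop
    apply hLtop
    rw [eq_top_iff]
    intro k _
    have hk : k ∈ closure (Set.range X) := hX k
    have hsub : Set.range X ⊆ (L : Set K) := by
      rintro _ ⟨z, rfl⟩
      exact hXM z (by rw [htop]; exact Submodule.mem_top)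
    have := closure_mono hsub hk
    rwa [hLc.closure_eq] at this
  · -- hyperinvariant
    intro B hB z hz
    have hBG : ∀ w ∈ G, B w ∈ G := by
      rintro w ⟨A, hA, l, hl, rfl⟩
      refine ⟨B ∘L A, ?_, l, hl, by simp⟩
      calc (B ∘L A) ∘L T = B ∘L (A ∘L T) := by ext v; simp
        _ = B ∘L (T ∘L A) := by rw [hA]
        _ = (B ∘L T) ∘L A := by ext v; simp
        _ = (T ∘L B) ∘L A := by rw [hB]
        _ = T ∘L (B ∘L A) := by ext v; simp
    have hBM0 : ∀ w ∈ M0, B w ∈ M0 := by
      intro w hw
      induction hw using Submodule.span_induction with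
      | mem w hw => exact Submodule.subset_span (hBG w hw)
      | zero => simp
      | add a b _ _ ha hb => rw [map_add]; exact M0.add_mem ha hb
      | smul c a _ ha => rw [map_smul]; exact M0.smul_mem c ha
    have hz' : z ∈ closure (M0 : Set H) := hz
    exact map_mem_closure B.continuous hz' (fun w hw => hBM0 w hw)

/-- **Hand-in.** Let `T` be intertwined with `S` (`X T = S X`, `T Y = Y S`, `X` of dense range, `Y`
injective; in particular `T` quasi-similar or similar to `S`).  If `S` has a nontrivial closed
hyperinvariant subspace, or `S` is a nonscalar normal operator, then `T` has a nontrivial closed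
hyperinvariant subspace. -/
theorem result {H : Type u} [NormedAddCommGroup H] [InnerProductSpace ℂ H] [CompleteSpace H]
    {K : Type v} [NormedAddCommGroup K] [InnerProductSpace ℂ K] [CompleteSpace K]
    (T : H →L[ℂ] H) (S : K →L[ℂ] K) (hTS : Intertwined T S)
    (hS : HasHyperinvariant S ∨
      (ContinuousLinearMap.adjoint S ∘L S = S ∘L ContinuousLinearMap.adjoint S ∧
        ∀ c : ℂ, S ≠ c • ContinuousLinearMap.id ℂ K)) :
    HasHyperinvariant T := by
  obtain ⟨X, Y, hXT, hTY, hX, hY⟩ := hTS
  rcases hS with hS | ⟨hn, hsc⟩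
  · exact transfer T S X Y hXT hTY hX hY hS
  · exact transfer T S X Y hXT hTY hX hY
      (Vale.Agent.Results.P131.A_NormalOperators.result S hsc (Or.inl hn))

end Vale.Agent.Results.P131.B_QuasiSimilar
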